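import Mathlib

/-!
# S0010 (row 9), package WP-FT (owner: helper45): field theory of a function field in char `p`

Standalone (Mathlib only).  For a field `K` of characteristic `p`, finitely generated and of
transcendence degree `≥ 2` over an algebraically closed subfield `k`:

* `G0`: the set of `p`-th powers of `K` is infinite;
* `G1`: there are `x y : K` with `x ∉ K^p` and `y ∉ K^p(x) = {∑_{i<p} a_i^p x^i}`;
* `G2`: an element having `p^n`-th roots in `K` for all `n` lies in `k`.
-/

namespace Crest.Agent.Helper45.S0010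

open Polynomial IntermediateField

section LemmaT

variable {M K : Type*} [Field M] [Field K] [Algebra M K]

/-- Lemma T: a transcendental `t` is not a rational function of `t ^ p` (`p ≥ 2`). -/
theorem not_mem_adjoin_pow {p : ℕ} (hp : 2 ≤ p) {t : K} (ht : Transcendental M t) :
    t ∉ M⟮t ^ p⟯ := by
  intro h
  rw [IntermediateField.mem_adjoin_simple_iff] at h
  obtain ⟨r, s, hrs⟩ := h
  have hs : aeval (t ^ p) s ≠ 0 := by
    intro h0
    rw [h0, div_zero] at hrs
    exact ht (hrs ▸ isAlgebraic_zero)
  have h1 : aeval t (X * expand M p s - expand M p r) = 0 := by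
    rw [map_sub, map_mul, aeval_X, expand_aeval, expand_aeval]
    rw [eq_div_iff hs] at hrs
    rw [hrs, sub_self]
  have h2 : X * expand M p s - expand M p r = 0 := by
    by_contra hne
    exact ht ⟨_, hne, h1⟩
  apply hs
  have hs0 : s = 0 := by
    ext n
    have h3 := congrArg (fun q => q.coeff (n * p + 1)) h2
    simp only [coeff_sub, coeff_zero] at h3
    rw [coeff_X_mul, coeff_expand_mul (by omega), coeff_expand (by omega)] at h3
    have hnd : ¬ p ∣ n * p + 1 := by
      intro hd
      have : p ∣ 1 := (Nat.dvd_add_right (Dvd.intro_left n rfl)).mp hd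
      have := Nat.le_of_dvd one_pos this
      omega
    rw [if_neg hnd, sub_zero] at h3
    simpa using h3
  rw [hs0, map_zero]

end LemmaT

section Sep

variable {F' K : Type*} [Field F'] [Field K] [Algebra F' K] {p : ℕ} [Fact p.Prime] [CharP K p]

/-- An element separable over `F'` whose `p`-th power lies in `F'` lies in `F'`. -/
theorem mem_range_of_isSeparable_of_pow_mem {y : K} (hsep : IsSeparable F' y)
    (hpow : y ^ p ∈ (algebraMap F' K).range) : y ∈ (algebraMap F' K).range := by
  have : CharP F' p := (algebraMap F' K).charP (algebraMap F' K).injective p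
  have : ExpChar F' p := ExpChar.prime Fact.out
  have h1 : y ∈ separableClosure F' K := mem_separableClosure_iff.mpr hsep
  have h2 : y ∈ perfectClosure F' K :=
    (mem_perfectClosure_iff_pow_mem p).mpr ⟨1, by simpa using hpow⟩
  have h3 : y ∈ (⊥ : IntermediateField F' K) := by
    rw [← separableClosure_inf_perfectClosure]
    exact ⟨h1, h2⟩
  exact IntermediateField.mem_bot.mp h3

/-- If `K/F` is separable and `p`-th powers of `F` lie in `F'`, then every `p`-th power of `K`
is separable over `F'`. -/
theorem isSeparable_pow_of_frob {F : Type*} [Field F] [Algebra F K] [Algebra.IsSeparable F K]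
    (hFF' : ∀ u : F, (algebraMap F K u) ^ p ∈ (algebraMap F' K).range) (a : K) :
    IsSeparable F' (a ^ p) := by
  set ψ : F →+* K := (frobenius K p).comp (algebraMap F K) with hψ
  have hμ : (minpoly F a).Separable := Algebra.IsSeparable.isSeparable F a
  have hμK : ((minpoly F a).map ψ).Separable := (Polynomial.separable_map ψ).mpr hμ
  have hl : (minpoly F a).map ψ ∈ Polynomial.lifts (algebraMap F' K) := by
    rw [Polynomial.lifts_iff_coeff_lifts]
    intro n
    rw [Polynomial.coeff_map]
    exact hFF' _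
  obtain ⟨ν, hν'⟩ := hl
  have hν : ν.map (algebraMap F' K) = (minpoly F a).map ψ := hν'
  have hνsep : ν.Separable := (Polynomial.separable_map (algebraMap F' K)).mp (hν ▸ hμK)
  have hroot : aeval (a ^ p) ν = 0 := by
    rw [Polynomial.aeval_def, Polynomial.eval₂_eq_eval_map, hν, Polynomial.eval_map, hψ]
    have h1 := Polynomial.hom_eval₂ (minpoly F a) (algebraMap F K) (frobenius K p) a
    have h2 : frobenius K p a = a ^ p := rfl
    rw [h2] at h1
    rw [← h1, ← Polynomial.aeval_def, minpoly.aeval, map_zero]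
  exact hνsep.of_dvd (minpoly.dvd F' _ hroot)

end Sep

section Main

variable {p : ℕ} [Fact p.Prime] {K : Type*} [Field K] [CharP K p] (k : Subfield K)

theorem mem_adjoin_simple_of_mem {F : Type*} [Field F] [Algebra F K] (M : IntermediateField F K)
    (c : K) {x : K} (hx : x ∈ M) : x ∈ M⟮c⟯ :=
  (M⟮c⟯).algebraMap_mem (⟨x, hx⟩ : M)

/-- `p`-th powers of elements of `k(S)` lie in `k(S \ {b})(b ^ p)`. -/
theorem pow_mem_adjoin (S : Set K) (b : K) {u : K} (hu : u ∈ IntermediateField.adjoin k S) :
    u ^ p ∈ (IntermediateField.adjoin k (S \ {b}))⟮b ^ p⟯ := by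
  induction hu using IntermediateField.adjoin_induction with
  | mem x hx =>
    by_cases hxb : x = b
    · rw [hxb]; exact mem_adjoin_simple_self _ _
    · exact mem_adjoin_simple_of_mem _ _ (pow_mem
        (IntermediateField.subset_adjoin k (S \ {b}) (show x ∈ S \ {b} from ⟨hx, hxb⟩)) p)
  | algebraMap x =>
    exact mem_adjoin_simple_of_mem _ _ (pow_mem (IntermediateField.algebraMap_mem _ x) p)
  | add x y _ _ hx hy => rw [add_pow_char]; exact add_mem hx hy
  | inv x _ hx => rw [inv_pow]; exact inv_mem hx
  | mul x y _ _ hx hy => rw [mul_pow]; exact mul_mem hx hy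

/-- A member of an algebraically independent set is transcendental over the field generated by
the other members. -/
theorem transcendental_of_basis {t : Set K} (ht : AlgebraicIndependent k ((↑) : t → K)) {b : K}
    (hb : b ∈ t) : Transcendental (IntermediateField.adjoin k (t \ {b})) b := by
  rw [IntermediateField.transcendental_adjoin_iff]
  have h := ht.transcendental_adjoin (s := {i : t | (i : K) ≠ b}) (i := ⟨b, hb⟩) (by simp)
  have himg : (Subtype.val '' {i : t | (i : K) ≠ b}) = t \ {b} := by
    ext x; constructor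
    · rintro ⟨i, hi, rfl⟩; exact ⟨i.2, hi⟩
    · rintro ⟨hx, hxb⟩; exact ⟨⟨x, hx⟩, hxb, rfl⟩
  rwa [himg] at h

omit [CharP K p] in
/-- A member `b` of an algebraically independent set `t` is not in `k(t \ {b})(b ^ p)`. -/
theorem basis_not_mem {t : Set K} (ht : AlgebraicIndependent k ((↑) : t → K)) {b : K}
    (hb : b ∈ t) : b ∉ (IntermediateField.adjoin k (t \ {b}))⟮b ^ p⟯ :=
  not_mem_adjoin_pow (Fact.out : p.Prime).two_le (transcendental_of_basis k ht hb)

/-- A member of an algebraically independent set `t` is not a `p`-th power in `k(t)`. -/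
theorem basis_ne_pow {t : Set K} (ht : AlgebraicIndependent k ((↑) : t → K)) {b : K}
    (hb : b ∈ t) {u : K} (hu : u ∈ IntermediateField.adjoin k t) : u ^ p ≠ b :=
  fun h => basis_not_mem (p := p) k ht hb (h ▸ pow_mem_adjoin k t b hu)

theorem basis_not_isSeparable {t : Set K} (ht : AlgebraicIndependent k ((↑) : t → K)) {b : K}
    (hb : b ∈ t) : ¬ IsSeparable ((IntermediateField.adjoin k (t \ {b}))⟮b ^ p⟯) b := by
  intro hsep
  obtain ⟨v, hv⟩ := mem_range_of_isSeparable_of_pow_mem (p := p) hsep
    ⟨⟨b ^ p, mem_adjoin_simple_self _ _⟩, rfl⟩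
  have h := v.2
  rw [show (v : K) = b from hv] at h
  exact basis_not_mem (p := p) k ht hb h

theorem adjoin_eq_top_of_closure {s : Set K} (hs : Subfield.closure ((k : Set K) ∪ s) = ⊤) :
    IntermediateField.adjoin k s = ⊤ := by
  apply IntermediateField.toSubfield_injective
  rw [IntermediateField.adjoin_toSubfield]
  have h : Set.range (algebraMap k K) = (k : Set K) := by
    ext x; constructor
    · rintro ⟨y, rfl⟩; exact y.2
    · intro hx; exact ⟨⟨x, hx⟩, rfl⟩
  rw [h, hs]; rfl

theorem essFiniteType_of_closure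
    (hK : ∃ s : Finset K, Subfield.closure ((k : Set K) ∪ (s : Set K)) = ⊤) :
    Algebra.EssFiniteType k K := by
  obtain ⟨s, hs⟩ := hK
  rw [← IntermediateField.fg_top_iff]
  exact ⟨s, adjoin_eq_top_of_closure k hs⟩

/-- (G1), subfield form: there are `x y : K` with `x ∉ K^p` and `y ∉ K^p(x)`, where
`K^p = (frobenius K p).fieldRange` and `K^p(x) = Subfield.closure (K^p ∪ {x})`. -/
theorem G1_closure [IsAlgClosed k]
    (hK : ∃ s : Finset K, Subfield.closure ((k : Set K) ∪ (s : Set K)) = ⊤)
    (hK2 : 2 ≤ Algebra.trdeg k K) :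
    ∃ x y : K, x ∉ (frobenius K p).fieldRange ∧
      y ∉ Subfield.closure (((frobenius K p).fieldRange : Set K) ∪ {x}) := by
  have : Algebra.EssFiniteType k K := essFiniteType_of_closure k hK
  obtain ⟨s, hs, hsep⟩ := exists_isTranscendenceBasis_and_isSeparable_of_perfectField k K
  have hcard : 2 ≤ s.card := by
    have h1 := hs.lift_cardinalMk_eq_trdeg
    rw [Cardinal.lift_inj, Cardinal.mk_coe_finset] at h1
    rw [← h1] at hK2
    exact_mod_cast hK2
  obtain ⟨b1, hb1, b2, hb2, hne⟩ := Finset.one_lt_card.mp hcard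
  have hF : ∀ (b : K) (a : K),
      IsSeparable ((IntermediateField.adjoin k ((s : Set K) \ {b}))⟮b ^ p⟯) (a ^ p) := fun b a =>
    isSeparable_pow_of_frob (F := IntermediateField.adjoin k (s : Set K))
      (fun u => ⟨⟨_, pow_mem_adjoin k _ b u.2⟩, rfl⟩) a
  refine ⟨b1, b2, ?_, ?_⟩
  · rintro ⟨a, ha⟩
    apply basis_not_isSeparable (p := p) k hs.1 (Finset.mem_coe.mpr hb1)
    have h := hF b1 a
    rw [show a ^ p = b1 from ha] at h
    exact h
  · intro hmem
    apply basis_not_isSeparable (p := p) k hs.1 (Finset.mem_coe.mpr hb2)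
    have hb1m : b1 ∈ (IntermediateField.adjoin k ((s : Set K) \ {b2}))⟮b2 ^ p⟯ :=
      mem_adjoin_simple_of_mem _ _ (IntermediateField.subset_adjoin k ((s : Set K) \ {b2})
        (show b1 ∈ (s : Set K) \ {b2} from ⟨Finset.mem_coe.mpr hb1, hne⟩))
    have hle : Subfield.closure (((frobenius K p).fieldRange : Set K) ∪ {b1}) ≤
        (separableClosure ((IntermediateField.adjoin k ((s : Set K) \ {b2}))⟮b2 ^ p⟯)
          K).toSubfield := by
      rw [Subfield.closure_le]
      rintro w (⟨a, rfl⟩ | rfl)
      · exact mem_separableClosure_iff.mpr (hF b2 a)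
      · exact IntermediateField.algebraMap_mem _ (⟨w, hb1m⟩ :
          (IntermediateField.adjoin k ((s : Set K) \ {b2}))⟮b2 ^ p⟯)
    exact mem_separableClosure_iff.mp (hle hmem)

/-- (G1), elementwise form: there are `x y : K` with `x` not a `p`-th power and `y` not of the
form `∑_{i<p} a_i^p x^i`. -/
theorem G1 [IsAlgClosed k]
    (hK : ∃ s : Finset K, Subfield.closure ((k : Set K) ∪ (s : Set K)) = ⊤)
    (hK2 : 2 ≤ Algebra.trdeg k K) :
    ∃ x y : K, (∀ a : K, a ^ p ≠ x) ∧ (∀ a : Fin p → K, ∑ i, a i ^ p * x ^ (i : ℕ) ≠ y) := by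
  obtain ⟨x, y, hx, hy⟩ := G1_closure (p := p) k hK hK2
  refine ⟨x, y, fun a ha => hx ⟨a, ha⟩, fun a ha => hy ?_⟩
  have h1 : ∀ i, a i ^ p ∈ Subfield.closure (((frobenius K p).fieldRange : Set K) ∪ {x}) :=
    fun i => Subfield.subset_closure (Or.inl ⟨a i, rfl⟩)
  have h2 : x ∈ Subfield.closure (((frobenius K p).fieldRange : Set K) ∪ {x}) :=
    Subfield.subset_closure (Or.inr rfl)
  rw [← ha]
  exact sum_mem fun i _ => mul_mem (h1 i) (pow_mem h2 _)

/-- (G0) the set of `p`-th powers of `K` is infinite. -/
theorem G0 [IsAlgClosed k] : Set.Infinite {z : K | ∃ w : K, w ^ p = z} := by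
  have hinf : Infinite K := Infinite.of_injective (algebraMap k K) (algebraMap k K).injective
  have h : {z : K | ∃ w : K, w ^ p = z} = Set.range (frobenius K p) := rfl
  rw [h]
  exact Set.infinite_range_of_injective (frobenius_inj K p)

end Main

end Crest.Agent.Helper45.S0010
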