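import Crest.Agent.Helper45.S0010.FT
import Crest.Agent.Helper31.S0010.Deriv

/-!
# S0010 (row 9), package WP-FT: partners (on top of helper31's `pPow` / `pAdj` / `PIndep`)

For `K` of characteristic `p`, finitely generated of transcendence degree `≥ 2` over an
algebraically closed subfield `k`:

* `exists_pIndep`: a `p`-independent pair exists;
* `exists_notMem_pPow`: `K` is not perfect;
* `exists_notMem_pAdj` (Part): for every `x` there is `y ∉ K^p(x)`;
* `exists_notMem_pAdj_pAdj` (Part2): for all `x x'` there is `y ∉ K^p(x) ∪ K^p(x')`.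
-/

set_option autoImplicit false

namespace Crest.Agent.Helper45.S0010

open Crest.Agent.Helper31.S0010

variable {p : ℕ} [Fact p.Prime] {K : Type*} [Field K] [CharP K p] (k : Subfield K) [IsAlgClosed k]

theorem exists_pIndep
    (hK : ∃ s : Finset K, Subfield.closure ((k : Set K) ∪ (s : Set K)) = ⊤)
    (hK2 : 2 ≤ Algebra.trdeg k K) : ∃ x y : K, PIndep p x y :=
  G1_closure (p := p) k hK hK2

theorem exists_notMem_pPow
    (hK : ∃ s : Finset K, Subfield.closure ((k : Set K) ∪ (s : Set K)) = ⊤)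
    (hK2 : 2 ≤ Algebra.trdeg k K) : ∃ w : K, w ∉ pPow (L := K) p := by
  obtain ⟨x, _, hx, _⟩ := exists_pIndep (p := p) k hK hK2
  exact ⟨x, hx⟩

/-- (Part) every `x` has a partner `y ∉ K^p(x)`. -/
theorem exists_notMem_pAdj
    (hK : ∃ s : Finset K, Subfield.closure ((k : Set K) ∪ (s : Set K)) = ⊤)
    (hK2 : 2 ≤ Algebra.trdeg k K) (x : K) : ∃ y : K, y ∉ pAdj p x := by
  obtain ⟨b1, b2, hb1, hb2⟩ := exists_pIndep (p := p) k hK hK2
  by_contra hne
  have hall : ∀ y : K, y ∈ pAdj p x := fun y => by_contra fun h => hne ⟨y, h⟩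
  have hx : x ∈ pAdj p b1 := exchange p (pPow p) (pow_mem_pPow p) (hall b1) hb1
  have hle : pAdj p x ≤ pAdj p b1 := adj_le (pPow_le_pAdj p b1) hx
  exact hb2 (hle (hall b2))

/-- (Part2) for all `x x'` there is `y` outside `K^p(x)` and outside `K^p(x')`. -/
theorem exists_notMem_pAdj_pAdj
    (hK : ∃ s : Finset K, Subfield.closure ((k : Set K) ∪ (s : Set K)) = ⊤)
    (hK2 : 2 ≤ Algebra.trdeg k K) (x x' : K) : ∃ y : K, y ∉ pAdj p x ∧ y ∉ pAdj p x' := by
  obtain ⟨a, ha⟩ := exists_notMem_pAdj (p := p) k hK hK2 x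
  obtain ⟨b, hb⟩ := exists_notMem_pAdj (p := p) k hK hK2 x'
  by_cases ha' : a ∈ pAdj p x'
  · by_cases hb' : b ∈ pAdj p x
    · refine ⟨a + b, fun h => ha ?_, fun h => hb ?_⟩
      · have h1 := sub_mem h hb'
        rwa [add_sub_cancel_right] at h1
      · have h1 := sub_mem h ha'
        rwa [add_sub_cancel_left] at h1
    · exact ⟨b, hb', hb⟩
  · exact ⟨a, ha, ha'⟩

end Crest.Agent.Helper45.S0010
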